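import Vale.Agent.P242.Koe
import Vale.Agent.P242.Defs2

namespace Vale.Agent.Results.P242.SelfSim

open Vale.Agent.P242

universe u v

theorem result (n : ℕ) (X : Type u) [MetricSpace X] (p : X) (hp : Regular n p) :
    (∀ (Y : Type v) [MetricSpace Y] [ProperSpace Y] (K : Set Y), Bornology.IsBounded K →
      Modelled K p → Chart n p) ∧
    (ProperSpace X → (Chart n p ↔ Modelled ({p} : Set X) p)) ∧
    (ProperSpace X → ∀ ψ : X → X, DiniContraction ψ p → Chart n p) := by
  refine ⟨fun Y _ _ K hK hm => chart_of_modelled hK hp hm, fun _ =>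
    ⟨modelled_of_chart, chart_of_modelled Bornology.isBounded_singleton hp⟩, fun _ ψ hψ => ?_⟩
  obtain ⟨ρ, lam, μ, om, hρ, hlam, hμ, h0, hon, hom, hsum, hlm, hd⟩ := hψ
  have hμ0 : 0 < μ := lt_of_lt_of_le (by positivity) (hlm 0)
  exact chart_of_modelled Bornology.isBounded_singleton hp
    (modelled_of_contraction ψ om hρ hlam hμ0 hμ h0 hom hsum hlm hd hon)

end Vale.Agent.Results.P242.SelfSim
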